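import Mathlib
import Vale.Agent.helper6.G.Assemble

open MeasureTheory Matrix
open scoped ENNReal

/-- Let `K` be any convex body in `ℝ³`. Let finitely many cylinders cover `K`: the `i`-th cylinder
has axis the unit vector `u i` and base `B i` in the plane orthogonal to `u i`, written in an
orthonormal basis `e i, f i` of that plane. Then the sum of the ratios of the area of `B i` to the
area of the orthogonal projection of `K` on that plane is at least `1 / 3 + 1 / 10 ^ 40`. -/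
theorem Vale.Agent.Results.P243.GeneralImprovement.result
    (K : Set (Fin 3 → ℝ))
    (hK_compact : IsCompact K) (hK_convex : Convex ℝ K) (hK_interior : (interior K).Nonempty)
    {m : ℕ} (e f u : Fin m → Fin 3 → ℝ)
    (hframe : ∀ i, e i ⬝ᵥ e i = 1 ∧ f i ⬝ᵥ f i = 1 ∧ u i ⬝ᵥ u i = 1 ∧
      e i ⬝ᵥ f i = 0 ∧ e i ⬝ᵥ u i = 0 ∧ f i ⬝ᵥ u i = 0)
    (B : Fin m → Set (ℝ × ℝ))
    (hcover : K ⊆ ⋃ i, {x | ∃ b ∈ B i, ∃ t : ℝ, x = b.1 • e i + b.2 • f i + t • u i}) :
    ENNReal.ofReal (1 / 3 + 1 / 10 ^ 40) ≤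
      ∑ i, volume (B i) / volume ((fun x => (e i ⬝ᵥ x, f i ⬝ᵥ x)) '' K) :=
  Vale.Agent.helper6.G.frame_general_bound K hK_compact hK_convex hK_interior e f u hframe B hcover
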