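import Mathlib
import Vale.Agent.helper6.BangCore

open MeasureTheory Matrix
open scoped ENNReal

/-- Let `K` be a centrally symmetric convex body in `ℝ³`. Let finitely many cylinders cover `K`:
the `i`-th cylinder has axis the unit vector `u i` and base `B i` in the plane orthogonal to `u i`,
written in an orthonormal basis `e i, f i` of that plane. Then the sum of the ratios of the area of
`B i` to the area of the orthogonal projection of `K` on that plane is at least `5 / 12`. -/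
theorem Vale.Agent.Results.P243.SymmetricFiveTwelfths.result
    (K : Set (Fin 3 → ℝ))
    (hK_compact : IsCompact K) (hK_convex : Convex ℝ K) (hK_interior : (interior K).Nonempty)
    (hK_symm : ∀ x ∈ K, -x ∈ K)
    {m : ℕ} (e f u : Fin m → Fin 3 → ℝ)
    (hframe : ∀ i, e i ⬝ᵥ e i = 1 ∧ f i ⬝ᵥ f i = 1 ∧ u i ⬝ᵥ u i = 1 ∧
      e i ⬝ᵥ f i = 0 ∧ e i ⬝ᵥ u i = 0 ∧ f i ⬝ᵥ u i = 0)
    (B : Fin m → Set (ℝ × ℝ))
    (hcover : K ⊆ ⋃ i, {x | ∃ b ∈ B i, ∃ t : ℝ, x = b.1 • e i + b.2 • f i + t • u i}) :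
    (5 / 12 : ℝ≥0∞) ≤
      ∑ i, volume (B i) / volume ((fun x => (e i ⬝ᵥ x, f i ⬝ᵥ x)) '' K) :=
  Vale.Agent.helper6.Bang.frame_cover_bound K hK_compact hK_convex hK_interior hK_symm e f u hframe
    B hcover
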