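import Mathlib
import Vale.Agent.Results.P243.GeneralImprovement
import Vale.Agent.Results.P243.SymmetricFiveTwelfths

open MeasureTheory Matrix
open scoped ENNReal

/-- Let `K` be a convex body in `ℝ³`. Let finitely many cylinders cover `K`: the `i`-th cylinder has
axis the unit vector `u i` and base `B i` in the plane orthogonal to `u i`, written in an orthonormal
basis `e i, f i` of that plane. Then the sum of the ratios of the area of `B i` to the area of the
orthogonal projection of `K` on that plane is at least `1 / 3 + 1 / 10 ^ 40`, and at least `5 / 12`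
if `K` is centrally symmetric. -/
theorem Vale.Agent.Results.P243.Combined.result
    (K : Set (Fin 3 → ℝ))
    (hK_compact : IsCompact K) (hK_convex : Convex ℝ K) (hK_interior : (interior K).Nonempty)
    {m : ℕ} (e f u : Fin m → Fin 3 → ℝ)
    (hframe : ∀ i, e i ⬝ᵥ e i = 1 ∧ f i ⬝ᵥ f i = 1 ∧ u i ⬝ᵥ u i = 1 ∧
      e i ⬝ᵥ f i = 0 ∧ e i ⬝ᵥ u i = 0 ∧ f i ⬝ᵥ u i = 0)
    (B : Fin m → Set (ℝ × ℝ))
    (hcover : K ⊆ ⋃ i, {x | ∃ b ∈ B i, ∃ t : ℝ, x = b.1 • e i + b.2 • f i + t • u i}) :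
    ENNReal.ofReal (1 / 3 + 1 / 10 ^ 40) ≤
        ∑ i, volume (B i) / volume ((fun x => (e i ⬝ᵥ x, f i ⬝ᵥ x)) '' K) ∧
      ((∀ x ∈ K, -x ∈ K) → (5 / 12 : ℝ≥0∞) ≤
        ∑ i, volume (B i) / volume ((fun x => (e i ⬝ᵥ x, f i ⬝ᵥ x)) '' K)) :=
  ⟨Vale.Agent.Results.P243.GeneralImprovement.result K hK_compact hK_convex hK_interior e f u hframe
      B hcover,
    fun hK_symm => Vale.Agent.Results.P243.SymmetricFiveTwelfths.result K hK_compact hK_convex
      hK_interior hK_symm e f u hframe B hcover⟩
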