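import Mathlib
import Vale.Agent.helper6.BangPlank

open MeasureTheory Matrix
open scoped ENNReal

/-- Let `K` be a convex body in `ℝ³`. Let finitely many cylinders cover `K`: the `i`-th cylinder has
axis the unit vector `u i` and base `B i` in the plane orthogonal to `u i`, written in an orthonormal
basis `e i, f i` of that plane. If all axes are orthogonal to one unit vector `n`, and `A` is at most
the area of every orthogonal projection of `K` along a direction orthogonal to `n`, then the sum of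
the areas of the bases is at least `A / 2`. -/
theorem Vale.Agent.Results.P243.CoplanarHalfArea.result
    (K : Set (Fin 3 → ℝ))
    (hK_compact : IsCompact K) (hK_convex : Convex ℝ K) (hK_interior : (interior K).Nonempty)
    {m : ℕ} (e f u : Fin m → Fin 3 → ℝ)
    (hframe : ∀ i, e i ⬝ᵥ e i = 1 ∧ f i ⬝ᵥ f i = 1 ∧ u i ⬝ᵥ u i = 1 ∧
      e i ⬝ᵥ f i = 0 ∧ e i ⬝ᵥ u i = 0 ∧ f i ⬝ᵥ u i = 0)
    (B : Fin m → Set (ℝ × ℝ))
    (hcover : K ⊆ ⋃ i, {x | ∃ b ∈ B i, ∃ t : ℝ, x = b.1 • e i + b.2 • f i + t • u i})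
    (n : Fin 3 → ℝ) (hn : n ⬝ᵥ n = 1) (hun : ∀ i, u i ⬝ᵥ n = 0)
    (A : ℝ≥0∞)
    (hA : ∀ e' f' u' : Fin 3 → ℝ, (e' ⬝ᵥ e' = 1 ∧ f' ⬝ᵥ f' = 1 ∧ u' ⬝ᵥ u' = 1 ∧
      e' ⬝ᵥ f' = 0 ∧ e' ⬝ᵥ u' = 0 ∧ f' ⬝ᵥ u' = 0) → u' ⬝ᵥ n = 0 →
      A ≤ volume ((fun x => (e' ⬝ᵥ x, f' ⬝ᵥ x)) '' K)) :
    A / 2 ≤ ∑ i, volume (B i) :=
  Vale.Agent.helper6.BangPlank.coplanar_half_area K hK_compact hK_convex hK_interior e f u hframe B
    hcover n hn hun A hA
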